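import Vale.Agent.Lib.P028K.Main
import Vale.Agent.Lib.P028J.AE

/-! Almost every shift: Diophantine type `1 + ε` for every `ε > 0`, so `β` arbitrarily close to `2/3`. -/

open scoped BigOperators Real
open Finset MeasureTheory Filter Set

namespace Vale.Agent.Lib.P028K

/-- Almost every shift. -/
theorem ae_main_K : ∀ᵐ γ : ℝ, ∀ β : ℝ, 2 / 3 < β → ∀ θ : ℝ, 0 < θ → θ < 1 / 2 →
    ∀ (ψ : ℕ → ℝ) (A C₁ : ℝ) (q₀ : ℕ), (∀ q, 0 ≤ ψ q) → 1 ≤ A →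
      (∀ q r : ℕ, q₀ ≤ q → 1 / (q : ℝ) < ψ q → 1 / (r : ℝ) < ψ r → 2 * q ≤ r → (r : ℝ) * (2 * ψ q) < q →
        ψ r * (q : ℝ) ^ θ ≤ A * ψ q * (r : ℝ) ^ θ) →
      (∀ q, q₀ ≤ q → 1 / (q : ℝ) < ψ q → ψ q ≤ C₁ * (q : ℝ) ^ (-β)) →
      ¬ Summable (fun q : ℕ => (Nat.totient q : ℝ) / q * ψ q) →
      ∀ᵐ x : ℝ, ∃ᶠ q : ℕ in atTop, ∃ a : ℤ, |(q : ℝ) * x - a - γ| < ψ q := by
  have hirr : ∀ᵐ γ : ℝ, Irrational γ := by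
    have := (Set.countable_range ((↑) : ℚ → ℝ)).ae_notMem (volume : Measure ℝ)
    exact this
  filter_upwards [hirr, ae_not_liouvilleWith] with γ hγ hL β hβ θ hθ0 hθ1 ψ A C₁ q₀ h0 hA hmono hsize hdiv
  obtain ⟨w, hw1, hw2⟩ := Vale.Agent.Lib.P028J.exists_w β hβ
  obtain ⟨κ, hκ, hdio⟩ := Vale.Agent.Lib.P028J.dio_of_not_liouvilleWith γ (w + 1) hγ (by linarith)
    (hL (w + 1) (by linarith))
  have hdio' : ∀ n : ℕ, 0 < n → ∀ a : ℤ, κ / (n : ℝ) ^ w ≤ |(n : ℝ) * γ - a| := by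
    intro n hn a
    have := hdio n hn a
    rwa [add_sub_cancel_right] at this
  exact union_power_K γ κ w β C₁ θ hκ hw1.le hθ0 hθ1 hdio' hw2 ψ h0 A hA q₀ hmono hsize hdiv

end Vale.Agent.Lib.P028K
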