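import Vale.Agent.Lib.P028J.Level

/-! The second moment over levels: pairs with `K` decreasing slowly, and independent pairs with `Q s ≥ 2 Q r K r`. -/

open scoped BigOperators Real
open Finset
open Vale.Agent.Lib.P028G Vale.Agent.Lib.P028H Vale.Agent.Lib.P028J

namespace Vale.Agent.Lib.P028K

/-- Independent levels: for `q ∈ Sa`, `r ∈ Sb`, `n < Ka`, `1 ≤ m`: `n q < Ka * 2 Qa ≤ Qb ≤ r ≤ m r`, so `n q ≠ m r` and `offd γ Ka Kb q r = 0`. Conclude with `int_pair_w`. -/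
theorem pair_indep (γ : ℝ) (Ka Kb Qa Qb : ℕ) (hKa : 0 < Ka) (hKb : 0 < Kb) (hQa : 0 < Qa) (hQb : 0 < Qb)
    (Sa Sb : Finset ℕ) (hSa : ∀ q ∈ Sa, Qa ≤ q ∧ q < 2 * Qa) (hSb : ∀ r ∈ Sb, Qb ≤ r ∧ r < 2 * Qb)
    (f : ℕ → ℝ) (hind : 2 * Qa * Ka ≤ Qb) :
    (1 / ((Ka : ℝ) * Kb)) * ∫ x in (0 : ℝ)..1,
        (∑ q ∈ Sa, f q * fej Ka ((q : ℝ) * x - γ)) * (∑ r ∈ Sb, f r * fej Kb ((r : ℝ) * x - γ)) =
      ((∑ q ∈ Sa, f q) / Ka) * ((∑ r ∈ Sb, f r) / Kb) := by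
  have hKa' : (Ka : ℝ) ≠ 0 := by positivity
  have hKb' : (Kb : ℝ) ≠ 0 := by positivity
  rw [int_pair_w γ Ka Kb Sa Sb (fun q hq => lt_of_lt_of_le hQa (hSa q hq).1)
    (fun r hr => lt_of_lt_of_le hQb (hSb r hr).1) f]
  have hoff : ∀ q ∈ Sa, ∀ r ∈ Sb, offd γ Ka Kb q r = 0 := by
    intro q hq r hr
    unfold offd
    refine Finset.sum_eq_zero fun n hn => Finset.sum_eq_zero fun m hm => ?_
    have hn' := Finset.mem_Ico.1 hn
    have hm' := Finset.mem_Ico.1 hm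
    have hq' := hSa q hq
    have hr' := hSb r hr
    refine if_neg ?_
    intro heq
    have h1 : n * q < Ka * (2 * Qa) :=
      lt_of_lt_of_le (Nat.mul_lt_mul_of_lt_of_le hn'.2 hq'.2.le (by omega))
        (le_refl _)
    have h2 : r ≤ m * r := Nat.le_mul_of_pos_left r (by omega)
    have h3 : Ka * (2 * Qa) = 2 * Qa * Ka := by ring
    omega
  have hsum : ∑ q ∈ Sa, ∑ r ∈ Sb, f q * f r * offd γ Ka Kb q r = 0 := by
    refine Finset.sum_eq_zero fun q hq => Finset.sum_eq_zero fun r hr => ?_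
    rw [hoff q hq r hr, mul_zero]
  rw [hsum]
  field_simp
  ring

/-- A family of levels. -/
structure LevelDataK (f : ℕ → ℝ) (e C9 C10 θ A' : ℝ) (m : ℕ) (I : Finset ℕ) (Q K Z : ℕ → ℕ) (τ : ℕ → ℝ)
    (S : ℕ → Finset ℕ) : Prop where
  hQ : ∀ r ∈ I, 0 < Q r
  hK : ∀ r ∈ I, 0 < K r
  hZ1 : ∀ r ∈ I, 1 ≤ Z r
  hZ : ∀ r ∈ I, Z r ^ 3 ≤ Q r
  hS : ∀ r ∈ I, ∀ q ∈ S r, Q r ≤ q ∧ q < 2 * Q r
  hσ : ∀ r ∈ I, ∀ q ∈ S r, f q * (∑ d ∈ q.divisors, (d : ℝ)) ≤ q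
  hτ : ∀ r ∈ I, ∀ q ∈ S r, (q.divisors.card : ℝ) ≤ τ r
  hτ1 : ∀ r ∈ I, 1 ≤ τ r
  hsize : ∀ r ∈ I, τ r ^ 2 * Q r ≤ C9 * Z r * K r
  hzt : ∀ r ∈ I, (Z r : ℝ) + τ r ≤ C10 * (K r : ℝ) ^ (1 - e)
  hQmono : ∀ r ∈ I, ∀ s ∈ I, r ≤ s → Q r ≤ Q s
  hind : ∀ r ∈ I, ∀ s ∈ I, r ≤ s →
    2 * Q r * K r ≤ Q s ∨ (K r : ℝ) * (Q r : ℝ) ^ θ ≤ A' * K s * (Q s : ℝ) ^ θ
  hprod : ∀ r ∈ I, ∀ s ∈ I, r ≤ s → (2 : ℝ) ^ (s - r) * ((Q r : ℝ) ^ m * K r) ≤ (Q s : ℝ) ^ m * K s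

/-- The decay rate per index. -/
noncomputable def WK (θ : ℝ) (m : ℕ) : ℝ := (1 / 2 : ℝ) ^ (((1 : ℝ) / 4 - θ / 2) / m)

theorem WK_nonneg (θ : ℝ) (m : ℕ) : 0 ≤ WK θ m := by
  unfold WK
  positivity

theorem WK_lt_one (θ : ℝ) (m : ℕ) (hm : 1 ≤ m) (hθ1 : θ < 1 / 2) : WK θ m < 1 := by
  unfold WK
  have hm' : (0 : ℝ) < m := by exact_mod_cast hm
  exact Real.rpow_lt_one (by norm_num) (by norm_num) (div_pos (by linarith) hm')

/-- As `P028J.decay_mono`: `(a b)^m ≤ a^m b ≤ 2^(-n)`, so `a b ≤ (1/2)^(n/m)`, `√√(a b) ≤ (1/2)^(n/(4m)) ≤ (WK θ m)^n`. -/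
theorem decay_mono_K (θ a b : ℝ) (m : ℕ) (hm : 1 ≤ m) (hθ0 : 0 < θ) (hθ1 : θ < 1 / 2) (ha : 0 < a) (ha1 : a ≤ 1)
    (hb : 0 < b) (hb1 : b ≤ 1) (n : ℕ)
    (h : (2 : ℝ) ^ n * (a ^ m * b) ≤ 1) : Real.sqrt (Real.sqrt (a * b)) ≤ (WK θ m) ^ n := by
  have hW0 : 0 ≤ WK θ m := WK_nonneg θ m
  have hm' : (0 : ℝ) < m := by exact_mod_cast hm
  have hmne : m ≠ 0 := by omega
  have hW4m : (1 / 2 : ℝ) ≤ (WK θ m) ^ (4 * m) := by
    unfold WK
    rw [← Real.rpow_natCast, ← Real.rpow_mul (by norm_num)]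
    calc (1 / 2 : ℝ) = (1 / 2 : ℝ) ^ (1 : ℝ) := by simp
      _ ≤ _ := by
        apply Real.rpow_le_rpow_of_exponent_ge (by norm_num) (by norm_num)
        push_cast
        have : ((1 : ℝ) / 4 - θ / 2) / m * (4 * m) = 1 - 2 * θ := by
          field_simp
          ring
        rw [this]
        linarith
  have h1 : (1 / 2 : ℝ) ^ n ≤ ((WK θ m) ^ (4 * m)) ^ n := pow_le_pow_left₀ (by norm_num) hW4m n
  have h2n : (0 : ℝ) < 2 ^ n := by positivity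
  have h2 : a ^ m * b ≤ (1 / 2 : ℝ) ^ n := by
    rw [one_div, inv_pow, ← one_div, le_div_iff₀ h2n]
    linarith
  have h3 : (a * b) ^ m ≤ a ^ m * b := by
    rw [mul_pow]
    have hbm : b ^ m ≤ b := by
      calc b ^ m ≤ b ^ 1 := pow_le_pow_of_le_one hb.le hb1 hm
        _ = b := pow_one b
    exact mul_le_mul_of_nonneg_left hbm (by positivity)
  have h4 : (a * b) ^ m ≤ (((WK θ m) ^ n) ^ 4) ^ m := by
    have : (((WK θ m) ^ n) ^ 4) ^ m = ((WK θ m) ^ (4 * m)) ^ n := by ring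
    rw [this]
    linarith
  have h5 : a * b ≤ ((WK θ m) ^ n) ^ 4 :=
    (pow_le_pow_iff_left₀ (by positivity) (by positivity) hmne).1 h4
  apply Real.sqrt_le_iff.2 ⟨by positivity, ?_⟩
  apply Real.sqrt_le_iff.2 ⟨by positivity, ?_⟩
  calc a * b ≤ ((WK θ m) ^ n) ^ 4 := h5
    _ = (((WK θ m) ^ n) ^ 2) ^ 2 := by ring

/-- As `P028J.decay_anti`: `a^m ≤ 2^(-n)`, so `a ≤ (1/2)^(n/m)`, `a^(1/4-θ/2) ≤ (1/2)^(n (1/4-θ/2)/m) = (WK θ m)^n`. -/
theorem decay_anti_K (θ a b : ℝ) (m : ℕ) (hm : 1 ≤ m) (hθ0 : 0 < θ) (hθ1 : θ < 1 / 2) (ha : 0 < a) (ha1 : a ≤ 1)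
    (hb : 1 ≤ b) (n : ℕ)
    (h : (2 : ℝ) ^ n * (a ^ m * b) ≤ 1) : a ^ ((1 : ℝ) / 4 - θ / 2) ≤ (WK θ m) ^ n := by
  have hm' : (0 : ℝ) < m := by exact_mod_cast hm
  have h2n : (0 : ℝ) < 2 ^ n := by positivity
  have h2 : a ^ m * b ≤ (1 / 2 : ℝ) ^ n := by
    rw [one_div, inv_pow, ← one_div, le_div_iff₀ h2n]
    linarith
  have h3 : a ^ m ≤ (1 / 2 : ℝ) ^ n := by
    have : 0 ≤ a ^ m := by positivity
    nlinarith
  have hk : (0 : ℝ) ≤ ((1 : ℝ) / 4 - θ / 2) / m := div_nonneg (by linarith) hm'.le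
  have hL : a ^ ((1 : ℝ) / 4 - θ / 2) = (a ^ m) ^ (((1 : ℝ) / 4 - θ / 2) / m) := by
    rw [← Real.rpow_natCast a m, ← Real.rpow_mul ha.le]
    congr 1
    field_simp
  have hR : (WK θ m) ^ n = ((1 / 2 : ℝ) ^ n) ^ (((1 : ℝ) / 4 - θ / 2) / m) := by
    unfold WK
    rw [← Real.rpow_natCast, ← Real.rpow_natCast, ← Real.rpow_mul (by norm_num), ← Real.rpow_mul (by norm_num), mul_comm]
  rw [hL, hR]
  exact Real.rpow_le_rpow (by positivity) h3 hk

/-- The constant. -/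
noncomputable def CLK (C C9 C10 θ A' : ℝ) (m : ℕ) : ℝ := 18 * (C7H C C9 C10 * Real.sqrt A') * (2 / (1 - WK θ m))

/-- Same proof as `P028J.level_second_J` with `w = WK θ m`, `decay_mono_K`, `decay_anti_K`. New case in the ordered bound for `r ≤ s`: if `2 * Q r * K r ≤ Q s` (first alternative of `h.hind`), `pair_indep` gives
exactly `M r * M s`, and the other term is nonnegative. -/
theorem level_second_K (γ C e C9 C10 θ A' : ℝ) (m : ℕ) (hm : 1 ≤ m) (hC : 0 ≤ C) (he : 1 / 2 ≤ e) (he1 : e ≤ 1)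
    (hR : RowBd γ C e) (hnz : ∀ n : ℕ, 0 < n → 0 < nrm ((n : ℝ) * γ))
    (hC9 : 0 ≤ C9) (hC10 : 0 ≤ C10) (hθ0 : 0 < θ) (hθ1 : θ < 1 / 2) (hA' : 1 ≤ A')
    (f : ℕ → ℝ) (hf0 : ∀ q, 0 ≤ f q) (hf1 : ∀ q, f q ≤ 1)
    (I : Finset ℕ) (Q K Z : ℕ → ℕ) (τ : ℕ → ℝ) (S : ℕ → Finset ℕ)
    (h : LevelDataK f e C9 C10 θ A' m I Q K Z τ S) :
    ∫ x in (0 : ℝ)..1,
        (∑ r ∈ I, (3 / (K r : ℝ)) * ∑ q ∈ S r, f q * fej (K r) ((q : ℝ) * x - γ)) ^ 2 ≤
      9 * (∑ r ∈ I, (∑ q ∈ S r, f q) / K r) ^ 2 +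
        CLK C C9 C10 θ A' m * ∑ r ∈ I, (∑ q ∈ S r, f q) / K r := by
  classical
  set M : ℕ → ℝ := fun r => (∑ q ∈ S r, f q) / K r with hMdef
  have hM0 : ∀ r, 0 ≤ M r := fun r => by
    simp only [hMdef]
    exact div_nonneg (sum_nonneg fun q _ => hf0 q) (Nat.cast_nonneg _)
  set F : ℕ → ℝ → ℝ := fun r x => ∑ q ∈ S r, f q * fej (K r) ((q : ℝ) * x - γ) with hF
  have hFc : ∀ r, Continuous (F r) := fun r => by
    simp only [hF]
    exact continuous_finsetSum _ (fun q _ => (fej_continuous_aux _ _ _).const_mul _)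
  set w := WK θ m with hw
  have hw0 : 0 ≤ w := WK_nonneg θ m
  have hw1 : w < 1 := WK_lt_one θ m hm hθ1
  have hC7H : 0 ≤ C7H C C9 C10 := by
    simp only [C7H]
    have h1 := Real.sqrt_nonneg C9
    have h2 := mul_nonneg hC hC10
    nlinarith
  have hsA' : 1 ≤ Real.sqrt A' := by
    rw [Real.one_le_sqrt]
    exact hA'
  set c7 := C7H C C9 C10 * Real.sqrt A' with hc7
  have hC7 : 0 ≤ c7 := mul_nonneg hC7H (Real.sqrt_nonneg _)
  -- one ordered pair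
  have ordered : ∀ r ∈ I, ∀ s ∈ I, r ≤ s →
      (1 / ((K r : ℝ) * K s)) * ∫ x in (0 : ℝ)..1, F r x * F s x ≤
        M r * M s + 2 * c7 * (Real.sqrt (M r * M s) * w ^ (s - r)) := by
    intro r hr s hs hrs
    have hQr : (0 : ℝ) < Q r := by exact_mod_cast h.hQ r hr
    have hQs : (0 : ℝ) < Q s := by exact_mod_cast h.hQ s hs
    have hKr : (0 : ℝ) < K r := by exact_mod_cast h.hK r hr
    have hKs : (0 : ℝ) < K s := by exact_mod_cast h.hK s hs
    have ha : 0 < (Q r : ℝ) / Q s := div_pos hQr hQs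
    have ha1 : (Q r : ℝ) / Q s ≤ 1 := by
      rw [div_le_one hQs]
      exact_mod_cast h.hQmono r hr s hs hrs
    have hb : 0 < (K r : ℝ) / K s := div_pos hKr hKs
    have hprod : (2 : ℝ) ^ (s - r) * (((Q r : ℝ) / Q s) ^ m * ((K r : ℝ) / K s)) ≤ 1 := by
      have hp := h.hprod r hr s hs hrs
      have : (2 : ℝ) ^ (s - r) * (((Q r : ℝ) / Q s) ^ m * ((K r : ℝ) / K s)) =
          ((2 : ℝ) ^ (s - r) * ((Q r : ℝ) ^ m * K r)) / ((Q s : ℝ) ^ m * K s) := by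
        rw [div_pow]
        field_simp
      rw [this, div_le_one (by positivity)]
      exact hp
    have hSq : 0 ≤ 2 * C7H C C9 C10 * Real.sqrt (M r * M s) := by positivity
    rcases h.hind r hr s hs hrs with hi | hθK
    · have hpi := pair_indep γ (K r) (K s) (Q r) (Q s) (h.hK r hr) (h.hK s hs) (h.hQ r hr) (h.hQ s hs)
        (S r) (S s) (h.hS r hr) (h.hS s hs) f hi
      have hnn : 0 ≤ 2 * c7 * (Real.sqrt (M r * M s) * w ^ (s - r)) := by positivity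
      have hpi' : (1 / ((K r : ℝ) * K s)) * ∫ x in (0 : ℝ)..1, F r x * F s x = M r * M s := hpi
      rw [hpi']
      linarith
    rcases le_total (K r) (K s) with hK | hK
    · have hb1 : (K r : ℝ) / K s ≤ 1 := by
        rw [div_le_one hKs]
        exact_mod_cast hK
      have hpn := pair_norm_w γ C e C9 C10 (τ r) (τ s) hC he he1 hR hnz hC9 hC10
        (h.hτ1 r hr) (h.hτ1 s hs)
        (K r) (K s) (Q r) (Q s) (Z r) (Z s) (h.hK r hr) (h.hK s hs) (h.hQ r hr) (h.hQ s hs)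
        (h.hZ1 r hr) (h.hZ1 s hs) (h.hZ r hr) (h.hZ s hs) (S r) (S s) (h.hS r hr) (h.hS s hs)
        f hf0 hf1 (h.hσ r hr) (h.hσ s hs) (h.hτ r hr) (h.hτ s hs) (h.hsize r hr) (h.hsize s hs)
        (h.hzt r hr) (h.hzt s hs)
        (h.hQmono r hr s hs hrs) hK
      have hd := decay_mono_K θ _ _ m hm hθ0 hθ1 ha ha1 hb hb1 (s - r) hprod
      have hwn : 0 ≤ w ^ (s - r) := pow_nonneg hw0 _
      calc (1 / ((K r : ℝ) * K s)) * ∫ x in (0 : ℝ)..1, F r x * F s x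
          ≤ M r * M s + 2 * C7H C C9 C10 * Real.sqrt (M r * M s) *
              Real.sqrt (Real.sqrt (((Q r : ℝ) / Q s) * ((K r : ℝ) / K s))) := hpn
        _ ≤ M r * M s + 2 * C7H C C9 C10 * Real.sqrt (M r * M s) * w ^ (s - r) := by
            have := mul_le_mul_of_nonneg_left hd hSq
            linarith
        _ ≤ M r * M s + 2 * C7H C C9 C10 * Real.sqrt (M r * M s) * (Real.sqrt A' * w ^ (s - r)) := by
            have h1 : w ^ (s - r) ≤ Real.sqrt A' * w ^ (s - r) :=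
              le_mul_of_one_le_left hwn hsA'
            have := mul_le_mul_of_nonneg_left h1 hSq
            linarith
        _ = _ := by
            simp only [hc7]
            ring
    · have hb1 : 1 ≤ (K r : ℝ) / K s := by
        rw [one_le_div hKs]
        exact_mod_cast hK
      have hpn := pair_anti γ C e C9 C10 (τ r) (τ s) A' θ hC he he1 hR hnz hC9 hC10
        (h.hτ1 r hr) (h.hτ1 s hs) hA' hθ0 hθ1
        (K r) (K s) (Q r) (Q s) (Z r) (Z s) (h.hK r hr) (h.hK s hs) (h.hQ r hr) (h.hQ s hs)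
        (h.hZ1 r hr) (h.hZ1 s hs) (h.hZ r hr) (h.hZ s hs) (S r) (S s) (h.hS r hr) (h.hS s hs)
        f hf0 hf1 (h.hσ r hr) (h.hσ s hs) (h.hτ r hr) (h.hτ s hs) (h.hsize r hr) (h.hsize s hs)
        (h.hzt r hr) (h.hzt s hs)
        (h.hQmono r hr s hs hrs) hK hθK
      have hd := decay_anti_K θ _ _ m hm hθ0 hθ1 ha ha1 hb1 (s - r) hprod
      have hsq0 : 0 ≤ Real.sqrt A' := Real.sqrt_nonneg _
      calc (1 / ((K r : ℝ) * K s)) * ∫ x in (0 : ℝ)..1, F r x * F s x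
          ≤ M r * M s + 2 * C7H C C9 C10 * Real.sqrt (M r * M s) *
              (Real.sqrt A' * ((Q r : ℝ) / Q s) ^ ((1 : ℝ) / 4 - θ / 2)) := hpn
        _ ≤ M r * M s + 2 * C7H C C9 C10 * Real.sqrt (M r * M s) * (Real.sqrt A' * w ^ (s - r)) := by
            have h1 := mul_le_mul_of_nonneg_left hd hsq0
            have := mul_le_mul_of_nonneg_left h1 hSq
            linarith
        _ = _ := by
            simp only [hc7]
            ring
  have key : ∀ r ∈ I, ∀ s ∈ I,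
      (1 / ((K r : ℝ) * K s)) * ∫ x in (0 : ℝ)..1, F r x * F s x ≤
        M r * M s + 2 * c7 * (Real.sqrt (M r * M s) * w ^ (r - s + (s - r))) := by
    intro r hr s hs
    rcases le_total r s with hrs | hsr
    · have := ordered r hr s hs hrs
      rw [show r - s + (s - r) = s - r by omega]
      exact this
    · have := ordered s hs r hr hsr
      rw [show r - s + (s - r) = r - s by omega]
      have e1 : (1 / ((K r : ℝ) * K s)) * ∫ x in (0 : ℝ)..1, F r x * F s x =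
          (1 / ((K s : ℝ) * K r)) * ∫ x in (0 : ℝ)..1, F s x * F r x := by
        rw [mul_comm (K r : ℝ) (K s : ℝ)]
        congr 1
        apply intervalIntegral.integral_congr
        intro x _
        simp only [mul_comm]
      rw [e1, mul_comm (M r) (M s)]
      exact this
  -- expansion
  have expand : ∫ x in (0 : ℝ)..1, (∑ r ∈ I, (3 / (K r : ℝ)) * F r x) ^ 2 =
      ∑ r ∈ I, ∑ s ∈ I, 9 * ((1 / ((K r : ℝ) * K s)) * ∫ x in (0 : ℝ)..1, F r x * F s x) := by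
    have e : ∀ x : ℝ, (∑ r ∈ I, (3 / (K r : ℝ)) * F r x) ^ 2 =
        ∑ r ∈ I, ∑ s ∈ I, 9 * ((1 / ((K r : ℝ) * K s)) * (F r x * F s x)) := by
      intro x
      rw [sq, Finset.sum_mul_sum]
      refine Finset.sum_congr rfl (fun r _ => Finset.sum_congr rfl (fun s _ => ?_))
      have : (3 / (K r : ℝ)) * (3 / (K s : ℝ)) = 9 * (1 / ((K r : ℝ) * K s)) := by
        rw [div_mul_div_comm]
        ring
      calc (3 / (K r : ℝ)) * F r x * ((3 / (K s : ℝ)) * F s x)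
          = ((3 / (K r : ℝ)) * (3 / (K s : ℝ))) * (F r x * F s x) := by ring
        _ = _ := by rw [this]; ring
    simp_rw [e]
    rw [intervalIntegral.integral_finsetSum]
    · refine Finset.sum_congr rfl (fun r _ => ?_)
      rw [intervalIntegral.integral_finsetSum]
      · refine Finset.sum_congr rfl (fun s _ => ?_)
        rw [intervalIntegral.integral_const_mul, intervalIntegral.integral_const_mul]
      · intro s _
        exact (((hFc r).mul (hFc s)).const_mul _ |>.const_mul _).intervalIntegrable _ _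
    · intro r _
      refine (Continuous.intervalIntegrable ?_ _ _)
      refine continuous_finsetSum _ (fun s _ => ?_)
      exact (((hFc r).mul (hFc s)).const_mul _ |>.const_mul _)
  have hS := schur_geom_gen I M hM0 w hw0 hw1
  have hgeom : 0 ≤ 18 * c7 := by positivity
  have goal' : ∫ x in (0 : ℝ)..1, (∑ r ∈ I, (3 / (K r : ℝ)) * F r x) ^ 2 ≤
      9 * (∑ r ∈ I, M r) ^ 2 + CLK C C9 C10 θ A' m * ∑ r ∈ I, M r := by
    rw [expand]
    calc ∑ r ∈ I, ∑ s ∈ I, 9 * ((1 / ((K r : ℝ) * K s)) * ∫ x in (0 : ℝ)..1, F r x * F s x)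
        ≤ ∑ r ∈ I, ∑ s ∈ I, 9 * (M r * M s + 2 * c7 *
            (Real.sqrt (M r * M s) * w ^ (r - s + (s - r)))) := by
          refine Finset.sum_le_sum (fun r hr => Finset.sum_le_sum (fun s hs => ?_))
          exact mul_le_mul_of_nonneg_left (key r hr s hs) (by norm_num)
      _ = 9 * (∑ r ∈ I, M r) ^ 2 + 18 * c7 * ∑ r ∈ I, ∑ s ∈ I,
            Real.sqrt (M r * M s) * w ^ (r - s + (s - r)) := by
          rw [sq, Finset.sum_mul_sum, Finset.mul_sum, Finset.mul_sum, ← Finset.sum_add_distrib]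
          refine Finset.sum_congr rfl (fun r _ => ?_)
          rw [Finset.mul_sum, Finset.mul_sum, ← Finset.sum_add_distrib]
          refine Finset.sum_congr rfl (fun s _ => ?_)
          ring
      _ ≤ 9 * (∑ r ∈ I, M r) ^ 2 + 18 * c7 * ((2 / (1 - w)) * ∑ r ∈ I, M r) := by
          have := mul_le_mul_of_nonneg_left hS hgeom
          linarith
      _ = _ := by
          simp only [CLK, hc7, hw]
          ring
  exact goal'

end Vale.Agent.Lib.P028K
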